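import Mathlib

/-!
P295: stable coordinates of polynomial rings.
-/

namespace Vale.Agent.P295H

open MvPolynomial

variable {K : Type*} [Field K]

/-- `f` is a coordinate: some automorphism sends it to a variable -/
def IsCoord {n : ℕ} (f : MvPolynomial (Fin n) K) : Prop :=
  ∃ (e : MvPolynomial (Fin n) K ≃ₐ[K] MvPolynomial (Fin n) K) (i : Fin n), e f = X i

/-- `f` is a stable coordinate: it is a coordinate after adding `m` variables, for some `m` -/
def IsStableCoord {n : ℕ} (f : MvPolynomial (Fin n) K) : Prop :=
  ∃ (m : ℕ) (e : MvPolynomial (Fin n ⊕ Fin m) K ≃ₐ[K] MvPolynomial (Fin n ⊕ Fin m) K)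
    (i : Fin n ⊕ Fin m), e (rename Sum.inl f) = X i

/-- a stable coordinate has no critical point -/
theorem exists_pderiv_ne {n : ℕ} {f : MvPolynomial (Fin n) K} (hf : IsStableCoord f)
    (a : Fin n → K) : ∃ i, eval a (pderiv i f) ≠ 0 := by
  classical
  obtain ⟨m, e, j₀, he⟩ := hf
  let a' : Fin n ⊕ Fin m → K := Sum.elim a 0
  let q : Fin n ⊕ Fin m → K := fun i => eval a' (e.symm (X i))
  have hq : ∀ p, eval q (e p) = eval a' p := by
    intro p
    have h1 : (aeval q : MvPolynomial (Fin n ⊕ Fin m) K →ₐ[K] K).comp e.toAlgHom =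
        (aeval a' : MvPolynomial (Fin n ⊕ Fin m) K →ₐ[K] K) := by
      have h2 : (aeval q : MvPolynomial (Fin n ⊕ Fin m) K →ₐ[K] K) =
          (aeval a' : MvPolynomial (Fin n ⊕ Fin m) K →ₐ[K] K).comp e.symm.toAlgHom := by
        apply MvPolynomial.algHom_ext
        intro i
        rw [aeval_X]
        show eval a' (e.symm (X i)) = aeval a' (e.symm (X i))
        rw [aeval_eq_eval]
      rw [h2]
      apply AlgHom.ext
      intro p
      show aeval a' (e.symm (e p)) = aeval a' p
      rw [e.symm_apply_apply]
    have h3 := AlgHom.congr_fun h1 p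
    have h4 : aeval q (e p) = aeval a' p := h3
    rw [aeval_eq_eval, aeval_eq_eval] at h4
    exact h4
  have key : ∀ p, eval q (pderiv j₀ (e p)) =
      ∑ j, eval q (pderiv j₀ (e (X j))) * eval a' (pderiv j p) := by
    intro p
    induction p using MvPolynomial.induction_on with
    | C c =>
      have h1 : e (C c) = C c := e.commutes c
      rw [h1, pderiv_C, map_zero]
      symm
      apply Finset.sum_eq_zero
      intro j _
      rw [pderiv_C, map_zero, mul_zero]
    | add p r hp hr =>
      rw [map_add, map_add, map_add, hp, hr, ← Finset.sum_add_distrib]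
      refine Finset.sum_congr rfl fun j _ => ?_
      rw [map_add, map_add, mul_add]
    | mul_X p i hp =>
      rw [map_mul, pderiv_mul, map_add, map_mul, map_mul, hp, hq, hq, eval_X]
      have h1 : ∀ j, eval q (pderiv j₀ (e (X j))) * eval a' (pderiv j (p * X i)) =
          (eval q (pderiv j₀ (e (X j))) * eval a' (pderiv j p)) * a' i +
            (if j = i then eval q (pderiv j₀ (e (X j))) * eval a' p else 0) := by
        intro j
        rw [pderiv_mul, map_add, map_mul, map_mul, eval_X]
        by_cases hji : j = i
        · subst hji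
          rw [pderiv_X_self, map_one, if_pos rfl]
          ring
        · rw [pderiv_X_of_ne (Ne.symm hji), map_zero, if_neg hji]
          ring
      rw [Finset.sum_congr rfl fun j _ => h1 j, Finset.sum_add_distrib, ← Finset.sum_mul,
        Finset.sum_ite_eq' Finset.univ i, if_pos (Finset.mem_univ _)]
      ring
  by_contra hcon
  push Not at hcon
  have h1 := key (rename Sum.inl f)
  rw [he, pderiv_X_self, map_one] at h1
  have h2 : ∑ j, eval q (pderiv j₀ (e (X j))) * eval a' (pderiv j (rename Sum.inl f)) = 0 := by
    apply Finset.sum_eq_zero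
    intro j _
    rcases j with j | j
    · rw [pderiv_rename Sum.inl_injective, eval_rename]
      have : a' ∘ Sum.inl = a := by
        funext k; rfl
      rw [this, hcon, mul_zero]
    · have : pderiv (Sum.inr j : Fin n ⊕ Fin m) (rename Sum.inl f) = 0 := by
        apply pderiv_eq_zero_of_notMem_vars
        intro h
        have h3 := vars_rename (Sum.inl : Fin n → Fin n ⊕ Fin m) f h
        rw [Finset.mem_image] at h3
        obtain ⟨k, _, hk⟩ := h3
        exact absurd hk (by simp)
      rw [this, map_zero, mul_zero]
  rw [h2] at h1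
  exact one_ne_zero h1

/-- a stable coordinate is irreducible -/
theorem irreducible_of_stable {n : ℕ} {f : MvPolynomial (Fin n) K} (hf : IsStableCoord f) :
    Irreducible f := by
  obtain ⟨m, e, j₀, he⟩ := hf
  have h1 : Irreducible (rename Sum.inl f : MvPolynomial (Fin n ⊕ Fin m) K) := by
    rw [← MulEquiv.irreducible_iff e, he]
    exact (X_prime (R := K) (i := j₀)).irreducible
  let ρ : MvPolynomial (Fin n ⊕ Fin m) K →ₐ[K] MvPolynomial (Fin n) K :=
    aeval (Sum.elim X 0)
  have hρ : ∀ p : MvPolynomial (Fin n) K, ρ (rename Sum.inl p) = p := by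
    intro p
    show aeval (Sum.elim X 0) (rename Sum.inl p) = p
    rw [aeval_rename]
    have : (Sum.elim X 0 : Fin n ⊕ Fin m → MvPolynomial (Fin n) K) ∘ Sum.inl = X := by
      funext k; rfl
    rw [this, aeval_X_left]
    rfl
  constructor
  · intro h
    apply h1.not_isUnit
    exact h.map (rename Sum.inl : MvPolynomial (Fin n) K →ₐ[K] MvPolynomial (Fin n ⊕ Fin m) K)
  · intro a b hab
    have h2 : (rename Sum.inl f : MvPolynomial (Fin n ⊕ Fin m) K) =
        rename Sum.inl a * rename Sum.inl b := by rw [hab, map_mul]
    rcases h1.isUnit_or_isUnit h2 with h | h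
    · left
      have := h.map ρ
      rwa [hρ] at this
    · right
      have := h.map ρ
      rwa [hρ] at this

/-- `c x_i + g` with `g` fixed by all substitutions for `x_i` is a coordinate -/
theorem coord_of_linear' {n : ℕ} {f g : MvPolynomial (Fin n) K} {i : Fin n} {c : K} (hc : c ≠ 0)
    (hfix : ∀ w : MvPolynomial (Fin n) K, aeval (Function.update X i w) g = g)
    (hf : f = C c * X i + g) : IsCoord f := by
  classical
  let u : Fin n → MvPolynomial (Fin n) K := Function.update X i (C c⁻¹ * (X i - g))
  let v : Fin n → MvPolynomial (Fin n) K := Function.update X i (C c * X i + g)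
  have hcc : (C c * C c⁻¹ : MvPolynomial (Fin n) K) = 1 := by
    rw [← C_mul, mul_inv_cancel₀ hc, C_1]
  have hui : aeval u (X i : MvPolynomial (Fin n) K) = C c⁻¹ * (X i - g) := by
    rw [aeval_X]; exact Function.update_self _ _ _
  have hvi : aeval v (X i : MvPolynomial (Fin n) K) = C c * X i + g := by
    rw [aeval_X]; exact Function.update_self _ _ _
  have hC : ∀ (w : Fin n → MvPolynomial (Fin n) K) (b : K), aeval w (C b) = C b := by
    intro w b
    rw [aeval_C]; rfl
  have huv : aeval u (C c * X i + g) = (X i : MvPolynomial (Fin n) K) := by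
    rw [map_add, map_mul, hui, hC, hfix, ← mul_assoc, hcc, one_mul, sub_add_cancel]
  have hvu : aeval v (C c⁻¹ * (X i - g)) = (X i : MvPolynomial (Fin n) K) := by
    rw [map_mul, map_sub, hvi, hC, hfix, add_sub_cancel_right, ← mul_assoc, mul_comm (C c⁻¹),
      hcc, one_mul]
  let e : MvPolynomial (Fin n) K ≃ₐ[K] MvPolynomial (Fin n) K :=
    AlgEquiv.ofAlgHom (aeval u) (aeval v)
      (by
        apply MvPolynomial.algHom_ext
        intro j
        show aeval u (aeval v (X j)) = X j
        by_cases hj : j = i
        · subst hj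
          rw [hvi, huv]
        · have h1 : aeval v (X j : MvPolynomial (Fin n) K) = X j := by
            rw [aeval_X]; exact Function.update_of_ne hj _ _
          rw [h1, aeval_X]; exact Function.update_of_ne hj _ _)
      (by
        apply MvPolynomial.algHom_ext
        intro j
        show aeval v (aeval u (X j)) = X j
        by_cases hj : j = i
        · subst hj
          rw [hui, hvu]
        · have h1 : aeval u (X j : MvPolynomial (Fin n) K) = X j := by
            rw [aeval_X]; exact Function.update_of_ne hj _ _
          rw [h1, aeval_X]; exact Function.update_of_ne hj _ _)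
  exact ⟨e, i, by rw [hf]; exact huv⟩

/-- `c x_i + g` with `g` free of `x_i` is a coordinate -/
theorem coord_of_linear {n : ℕ} {f g : MvPolynomial (Fin n) K} {i : Fin n} {c : K} (hc : c ≠ 0)
    (hg : i ∉ g.vars) (hf : f = C c * X i + g) : IsCoord f := by
  classical
  refine coord_of_linear' hc ?_ hf
  intro w
  have h1 : (aeval (Function.update X i w) : MvPolynomial (Fin n) K →ₐ[K] _).toRingHom g =
      (RingHom.id (MvPolynomial (Fin n) K)) g := by
    refine hom_congr_vars ?_ ?_ rfl
    · ext a
      simp
    · intro j hj _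
      have hji : j ≠ i := fun h => hg (h ▸ hj)
      show aeval (Function.update X i w) (X j) = X j
      rw [aeval_X, Function.update_of_ne hji]
  exact h1

theorem eval_zero_pderiv {n : ℕ} (f : MvPolynomial (Fin n) K) (i : Fin n) :
    eval 0 (pderiv i f) = coeff (Finsupp.single i 1) f := by
  have h1 : eval (0 : Fin n → K) (pderiv i f) = coeff 0 (pderiv i f) := by
    rw [← constantCoeff_eq, eval_zero]
  rw [h1, coeff_pderiv, zero_add]
  simp

/-- stable coordinates that are quasi-homogeneous for positive weights -/
theorem coord_of_weighted {n : ℕ} {f : MvPolynomial (Fin n) K} (hf : IsStableCoord f)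
    {w : Fin n → ℕ} (hw : ∀ i, 0 < w i) {d : ℕ} (hd : IsWeightedHomogeneous w f d) :
    IsCoord f := by
  classical
  obtain ⟨i, hi⟩ := exists_pderiv_ne hf 0
  rw [eval_zero_pderiv] at hi
  refine coord_of_linear (c := coeff (Finsupp.single i 1) f) (i := i)
    (g := f - C (coeff (Finsupp.single i 1) f) * X i) hi ?_ (by ring)
  have hdi : d = w i := by
    have h1 := hd hi
    rw [← h1, Finsupp.weight_apply, Finsupp.sum_single_index (by simp)]
    simp
  intro hvar
  obtain ⟨s, hs, hsi⟩ := (mem_vars_iff_mem_support i).1 hvar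
  have hs' : coeff s (f - C (coeff (Finsupp.single i 1) f) * X i) ≠ 0 := mem_support_iff.1 hs
  rw [coeff_sub, coeff_C_mul, coeff_X] at hs'
  have hne : s ≠ Finsupp.single i 1 := by
    rintro rfl
    rw [if_pos rfl, mul_one, sub_self] at hs'
    exact hs' rfl
  rw [if_neg (Ne.symm hne), mul_zero, sub_zero] at hs'
  have hws := hd hs'
  have hsi' : s i ≠ 0 := Finsupp.mem_support_iff.1 hsi
  have hle : Finsupp.single i 1 ≤ s := by
    rw [Finsupp.single_le_iff]
    omega
  obtain ⟨t, rfl⟩ : ∃ t, s = Finsupp.single i 1 + t := ⟨s - Finsupp.single i 1,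
    (add_tsub_cancel_of_le hle).symm⟩
  have h2 : Finsupp.weight w (Finsupp.single i 1) = w i := by
    rw [Finsupp.weight_apply, Finsupp.sum_single_index (by simp)]
    simp
  rw [map_add, h2, hdi] at hws
  have h3 : Finsupp.weight w t = 0 := by omega
  have h4 : t = 0 := by
    ext j
    by_contra hj
    have h5 := Finsupp.le_weight w (s := j) (hw j).ne' t
    rw [h3] at h5
    exact hj (Nat.le_zero.1 h5)
  exact hne (by rw [h4, add_zero])

end Vale.Agent.P295H
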