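import Vale.Agent.P295H.Two

/-!
P295: quadratic stable coordinates.
-/

namespace Vale.Agent.P295H

open MvPolynomial

variable {K : Type*} [Field K]

/-- the polynomial `c + ∑ l_i x_i + ∑ q_ij x_i x_j` -/
noncomputable def quad {n : ℕ} (c : K) (l : Fin n → K) (q : Fin n → Fin n → K) :
    MvPolynomial (Fin n) K :=
  C c + ∑ i, C (l i) * X i + ∑ i, ∑ j, C (q i j) * (X i * X j)

theorem eval_pderiv_quad {n : ℕ} (c : K) (l : Fin n → K) (q : Fin n → Fin n → K) (k : Fin n)
    (a : Fin n → K) :
    eval a (pderiv k (quad c l q)) = l k + ∑ j, (q k j + q j k) * a j := by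
  classical
  have h1 : ∀ i, eval a (pderiv k (C (l i) * X i : MvPolynomial (Fin n) K)) =
      if i = k then l i else 0 := by
    intro i
    rw [pderiv_C_mul]
    by_cases h : i = k
    · subst h
      rw [pderiv_X_self, mul_one, eval_C, if_pos rfl]
    · rw [pderiv_X_of_ne h, mul_zero, map_zero, if_neg h]
  have h2 : ∀ i j, eval a (pderiv k (C (q i j) * (X i * X j) : MvPolynomial (Fin n) K)) =
      (if i = k then q i j * a j else 0) + (if j = k then q i j * a i else 0) := by
    intro i j
    rw [pderiv_C_mul, pderiv_mul, map_mul, map_add, map_mul, map_mul, eval_C, eval_X, eval_X]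
    have e : ∀ i, eval a (pderiv k (X i : MvPolynomial (Fin n) K)) = if i = k then 1 else 0 := by
      intro i
      by_cases h : i = k
      · subst h
        rw [pderiv_X_self, map_one, if_pos rfl]
      · rw [pderiv_X_of_ne h, map_zero, if_neg h]
    rw [e, e]
    split_ifs <;> ring
  simp only [quad, map_add, map_sum, pderiv_C, map_zero, zero_add]
  rw [Finset.sum_congr rfl fun i _ => h1 i, Finset.sum_ite_eq' Finset.univ k,
    if_pos (Finset.mem_univ _)]
  congr 1
  have h3 : ∀ i, ∑ j, eval a (pderiv k (C (q i j) * (X i * X j) : MvPolynomial (Fin n) K)) =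
      (if i = k then ∑ j, q i j * a j else 0) + q i k * a i := by
    intro i
    rw [Finset.sum_congr rfl fun j _ => h2 i j, Finset.sum_add_distrib,
      Finset.sum_ite_eq' Finset.univ k, if_pos (Finset.mem_univ _)]
    congr 1
    split_ifs
    · rfl
    · exact Finset.sum_const_zero
  rw [Finset.sum_congr rfl fun i _ => h3 i, Finset.sum_add_distrib,
    Finset.sum_ite_eq' Finset.univ k, if_pos (Finset.mem_univ _), ← Finset.sum_add_distrib]
  exact Finset.sum_congr rfl fun j _ => by ring

/-- quadratic stable coordinates are coordinates -/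
theorem coord_of_quad {n : ℕ} (h2 : (2 : K) ≠ 0) {c : K} {l : Fin n → K} {q : Fin n → Fin n → K}
    (hf : IsStableCoord (quad c l q)) : IsCoord (quad c l q) := by
  classical
  let S : (Fin n → K) →ₗ[K] (Fin n → K) :=
    { toFun := fun a k => ∑ j, (q k j + q j k) * a j
      map_add' := fun a b => by
        funext k
        show ∑ j, (q k j + q j k) * (a j + b j) =
          (∑ j, (q k j + q j k) * a j) + ∑ j, (q k j + q j k) * b j
        rw [← Finset.sum_add_distrib]
        exact Finset.sum_congr rfl fun j _ => by ring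
      map_smul' := fun r a => by
        funext k
        show ∑ j, (q k j + q j k) * (r * a j) = r * ∑ j, (q k j + q j k) * a j
        rw [Finset.mul_sum]
        exact Finset.sum_congr rfl fun j _ => by ring }
  have hS : ∀ a k, S a k = ∑ j, (q k j + q j k) * a j := fun a k => rfl
  have hl : l ∉ LinearMap.range S := by
    rintro ⟨a, ha⟩
    obtain ⟨k, hk⟩ := exists_pderiv_ne hf (-a)
    apply hk
    rw [eval_pderiv_quad]
    have h3 := congrFun ha k
    rw [hS] at h3
    rw [← h3, ← Finset.sum_add_distrib]
    apply Finset.sum_eq_zero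
    intro j _
    show _ + _ * (- a j) = 0
    ring
  obtain ⟨φ, hφl, hφ⟩ := Submodule.exists_dual_map_eq_bot_of_notMem hl inferInstance
  have hφS : ∀ a, φ (S a) = 0 := by
    intro a
    have h3 : φ (S a) ∈ (LinearMap.range S).map φ :=
      Submodule.mem_map_of_mem (LinearMap.mem_range_self _ _)
    rw [hφ] at h3
    exact (Submodule.mem_bot K).1 h3
  let v : Fin n → K := fun i => φ (Pi.single i 1)
  have hv : ∀ x, φ x = ∑ i, x i * v i := by
    intro x
    have h3 : x = ∑ i, x i • (Pi.single i (1 : K) : Fin n → K) := by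
      funext k
      rw [Finset.sum_apply, Finset.sum_eq_single k]
      · simp
      · intro b _ hb
        simp [Pi.single_eq_of_ne (Ne.symm hb)]
      · intro h
        exact absurd (Finset.mem_univ _) h
    conv_lhs => rw [h3]
    rw [map_sum]
    exact Finset.sum_congr rfl fun i _ => by rw [map_smul, smul_eq_mul]
  -- `v` is in the kernel
  have hSv : ∀ j, ∑ k, (q j k + q k j) * v k = 0 := by
    intro j
    have h3 := hφS (Pi.single j 1)
    rw [hv] at h3
    rw [← h3]
    refine Finset.sum_congr rfl fun k _ => ?_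
    rw [hS, Finset.sum_eq_single j]
    · rw [Pi.single_eq_same]
      ring
    · intro b _ hb
      rw [Pi.single_eq_of_ne hb, mul_zero]
    · intro h
      exact absurd (Finset.mem_univ _) h
  have hqv : ∑ j, ∑ k, q j k * (v j * v k) = 0 := by
    have h3 : (2 : K) * ∑ j, ∑ k, q j k * (v j * v k) = ∑ j, v j * ∑ k, (q j k + q k j) * v k := by
      have h4 : ∑ j, v j * ∑ k, (q j k + q k j) * v k =
          (∑ j, ∑ k, q j k * (v j * v k)) + ∑ j, ∑ k, q k j * (v j * v k) := by
        rw [← Finset.sum_add_distrib]
        refine Finset.sum_congr rfl fun j _ => ?_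
        rw [Finset.mul_sum, ← Finset.sum_add_distrib]
        exact Finset.sum_congr rfl fun k _ => by ring
      have h5 : ∑ j, ∑ k, q k j * (v j * v k) = ∑ j, ∑ k, q j k * (v j * v k) := by
        rw [Finset.sum_comm]
        exact Finset.sum_congr rfl fun j _ => Finset.sum_congr rfl fun k _ => by ring
      rw [h4, h5, two_mul]
    have h4 : ∑ j, v j * ∑ k, (q j k + q k j) * v k = 0 :=
      Finset.sum_eq_zero fun j _ => by rw [hSv, mul_zero]
    rw [h4] at h3
    exact (mul_eq_zero.1 h3).resolve_left h2
  obtain ⟨i, hi⟩ : ∃ i, v i ≠ 0 := by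
    by_contra hcon
    push Not at hcon
    apply hφl
    rw [hv]
    exact Finset.sum_eq_zero fun i _ => by rw [hcon, mul_zero]
  -- the linear change of variables
  let Y : Fin n → MvPolynomial (Fin n) K := fun j => if j = i then 0 else X j
  let u : Fin n → MvPolynomial (Fin n) K := fun j => Y j + C (v j) * X i
  let w : Fin n → MvPolynomial (Fin n) K := fun j => Y j +
    C (if j = i then (v i)⁻¹ else - (v j * (v i)⁻¹)) * X i
  have hYi : Y i = 0 := if_pos rfl
  have hYj : ∀ j, j ≠ i → Y j = X j := fun j hj => if_neg hj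
  have hC : ∀ (w : Fin n → MvPolynomial (Fin n) K) (b : K), aeval w (C b) = C b := by
    intro w b
    rw [aeval_C]; rfl
  have hui : aeval u (X i : MvPolynomial (Fin n) K) = C (v i) * X i := by
    rw [aeval_X]
    show Y i + C (v i) * X i = _
    rw [hYi, zero_add]
  have hwi : aeval w (X i : MvPolynomial (Fin n) K) = C (v i)⁻¹ * X i := by
    rw [aeval_X]
    show Y i + C (if i = i then (v i)⁻¹ else _) * X i = _
    rw [hYi, zero_add, if_pos rfl]
  have huj : ∀ j, j ≠ i → aeval u (X j : MvPolynomial (Fin n) K) = X j + C (v j) * X i := by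
    intro j hj
    rw [aeval_X]
    show Y j + C (v j) * X i = _
    rw [hYj j hj]
  have hwj : ∀ j, j ≠ i → aeval w (X j : MvPolynomial (Fin n) K) =
      X j + C (- (v j * (v i)⁻¹)) * X i := by
    intro j hj
    rw [aeval_X]
    show Y j + C (if j = i then (v i)⁻¹ else - (v j * (v i)⁻¹)) * X i = _
    rw [hYj j hj, if_neg hj]
  have hvv : (C (v i) * C (v i)⁻¹ : MvPolynomial (Fin n) K) = 1 := by
    rw [← C_mul, mul_inv_cancel₀ hi, C_1]
  let e : MvPolynomial (Fin n) K ≃ₐ[K] MvPolynomial (Fin n) K :=
    AlgEquiv.ofAlgHom (aeval u) (aeval w)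
      (by
        apply MvPolynomial.algHom_ext
        intro j
        show aeval u (aeval w (X j)) = X j
        by_cases hj : j = i
        · subst hj
          rw [hwi, map_mul, hC, hui, ← mul_assoc, mul_comm (C (v j)⁻¹), hvv, one_mul]
        · rw [hwj j hj, map_add, map_mul, hC, hui, huj j hj, C_neg, C_mul]
          linear_combination (-(C (v j) * X i) : MvPolynomial (Fin n) K) * hvv)
      (by
        apply MvPolynomial.algHom_ext
        intro j
        show aeval w (aeval u (X j)) = X j
        by_cases hj : j = i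
        · subst hj
          rw [hui, map_mul, hC, hwi, ← mul_assoc, hvv, one_mul]
        · rw [huj j hj, map_add, map_mul, hC, hwi, hwj j hj, C_neg, C_mul]
          ring)
  apply coord_of_map e
  have hfl : (∑ j, l j * v j) ≠ 0 := by
    rw [← hv]; exact hφl
  refine coord_of_linear' (i := i) (c := ∑ j, l j * v j)
    (g := C c + ∑ j, C (l j) * Y j + ∑ j, ∑ k, C (q j k) * (Y j * Y k)) hfl ?_ ?_
  · intro z
    have hY : ∀ j, aeval (Function.update X i z) (Y j) = Y j := by
      intro j
      by_cases hj : j = i
      · subst hj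
        rw [hYi, map_zero]
      · rw [hYj j hj, aeval_X, Function.update_of_ne hj]
    rw [map_add, map_add, hC, map_sum, map_sum]
    congr 1
    · congr 1
      exact Finset.sum_congr rfl fun j _ => by rw [map_mul, hC, hY]
    · refine Finset.sum_congr rfl fun j _ => ?_
      rw [map_sum]
      exact Finset.sum_congr rfl fun k _ => by rw [map_mul, map_mul, hC, hY, hY]
  · show aeval u (quad c l q) = _
    have hu : ∀ j, aeval u (X j : MvPolynomial (Fin n) K) = Y j + C (v j) * X i := fun j =>
      aeval_X _ _
    rw [quad, map_add, map_add, hC, map_sum, map_sum]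
    have e1 : ∑ j, aeval u (C (l j) * X j : MvPolynomial (Fin n) K) =
        ∑ j, C (l j) * Y j + C (∑ j, l j * v j) * X i := by
      rw [map_sum, Finset.sum_mul, ← Finset.sum_add_distrib]
      refine Finset.sum_congr rfl fun j _ => ?_
      rw [map_mul, hC, hu, C_mul]
      ring
    have e2 : ∑ j, aeval u (∑ k, C (q j k) * (X j * X k) : MvPolynomial (Fin n) K) =
        ∑ j, ∑ k, C (q j k) * (Y j * Y k) +
          (∑ j, Y j * C (∑ k, (q j k + q k j) * v k)) * X i +
          C (∑ j, ∑ k, q j k * (v j * v k)) * (X i * X i) := by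
      have h5 : (∑ j, Y j * C (∑ k, (q j k + q k j) * v k)) =
          (∑ j, ∑ k, C (q j k) * (Y j * C (v k))) + ∑ j, ∑ k, C (q j k) * (C (v j) * Y k) := by
        have h6 : ∑ j, ∑ k, C (q j k) * (C (v j) * Y k) =
            ∑ j, ∑ k, C (q k j) * (C (v k) * Y j) := Finset.sum_comm
        rw [h6, ← Finset.sum_add_distrib]
        refine Finset.sum_congr rfl fun j _ => ?_
        rw [map_sum, Finset.mul_sum, ← Finset.sum_add_distrib]
        refine Finset.sum_congr rfl fun k _ => ?_
        rw [C_mul, C_add]
        ring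
      rw [h5, map_sum, add_mul, Finset.sum_mul, Finset.sum_mul, Finset.sum_mul,
        ← Finset.sum_add_distrib, ← Finset.sum_add_distrib, ← Finset.sum_add_distrib]
      refine Finset.sum_congr rfl fun j _ => ?_
      rw [map_sum, map_sum, Finset.sum_mul, Finset.sum_mul, Finset.sum_mul,
        ← Finset.sum_add_distrib, ← Finset.sum_add_distrib, ← Finset.sum_add_distrib]
      refine Finset.sum_congr rfl fun k _ => ?_
      rw [map_mul, map_mul, hC, hu, hu, C_mul, C_mul]
      ring
    rw [e1, e2, hqv, C_0, zero_mul, add_zero]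
    have h6 : ∑ j, Y j * C (∑ k, (q j k + q k j) * v k) = (0 : MvPolynomial (Fin n) K) :=
      Finset.sum_eq_zero fun j _ => by rw [hSv, C_0, mul_zero]
    rw [h6, zero_mul, add_zero]
    ring

end Vale.Agent.P295H
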