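import Vale.Agent.P295H.Quad

/-!
P295: separated stable coordinates `∑ p_i(x_i)`.
-/

namespace Vale.Agent.P295H

open MvPolynomial

variable {K : Type*} [Field K]

theorem pderiv_aeval_X {n : ℕ} (p : Polynomial K) (i k : Fin n) :
    pderiv k (Polynomial.aeval (X i : MvPolynomial (Fin n) K) p) =
      if i = k then Polynomial.aeval (X i : MvPolynomial (Fin n) K) (Polynomial.derivative p)
      else 0 := by
  classical
  have h := Derivation.map_aeval (pderiv (R := K) k) p (X i : MvPolynomial (Fin n) K)
  rw [h]
  by_cases hik : i = k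
  · subst hik
    rw [pderiv_X_self, if_pos rfl, smul_eq_mul, mul_one]
  · rw [pderiv_X_of_ne hik, smul_zero, if_neg hik]

theorem eval_aeval_X {n : ℕ} (p : Polynomial K) (i : Fin n) (a : Fin n → K) :
    eval a (Polynomial.aeval (X i : MvPolynomial (Fin n) K) p) = Polynomial.eval (a i) p := by
  have h1 : aeval a (Polynomial.aeval (X i : MvPolynomial (Fin n) K) p) =
      Polynomial.aeval (aeval a (X i : MvPolynomial (Fin n) K)) p :=
    (Polynomial.aeval_algHom_apply (aeval a : MvPolynomial (Fin n) K →ₐ[K] K) _ _).symm
  rw [aeval_X, Polynomial.coe_aeval_eq_eval, aeval_eq_eval] at h1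
  exact h1

/-- separated stable coordinates are coordinates -/
theorem coord_of_sep [IsAlgClosed K] [CharZero K] {n : ℕ} {p : Fin n → Polynomial K}
    (hf : IsStableCoord (∑ i, Polynomial.aeval (X i : MvPolynomial (Fin n) K) (p i))) :
    IsCoord (∑ i, Polynomial.aeval (X i : MvPolynomial (Fin n) K) (p i)) := by
  classical
  have hex : ∃ i, (Polynomial.derivative (p i)).degree = 0 := by
    by_contra hcon
    push Not at hcon
    have h1 : ∀ i, ∃ z, Polynomial.IsRoot (Polynomial.derivative (p i)) z := fun i =>
      IsAlgClosed.exists_root _ (hcon i)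
    choose a ha using h1
    obtain ⟨k, hk⟩ := exists_pderiv_ne hf a
    apply hk
    rw [map_sum, map_sum]
    apply Finset.sum_eq_zero
    intro i _
    rw [pderiv_aeval_X]
    by_cases hik : i = k
    · rw [if_pos hik, eval_aeval_X]
      exact ha i
    · rw [if_neg hik, map_zero]
  obtain ⟨i, hi⟩ := hex
  obtain ⟨c, hc⟩ : ∃ c, Polynomial.derivative (p i) = Polynomial.C c :=
    ⟨_, Polynomial.eq_C_of_degree_eq_zero hi⟩
  have hc0 : c ≠ 0 := by
    rintro rfl
    rw [hc, Polynomial.C_0, Polynomial.degree_zero] at hi
    exact absurd hi (by simp)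
  have hp : p i = Polynomial.C c * Polynomial.X + Polynomial.C ((p i).coeff 0) := by
    have h1 : Polynomial.derivative (p i - Polynomial.C c * Polynomial.X) = 0 := by
      rw [Polynomial.derivative_sub, hc, Polynomial.derivative_C_mul, Polynomial.derivative_X,
        mul_one, sub_self]
    have h2 := Polynomial.eq_C_of_derivative_eq_zero h1
    have h3 : (p i - Polynomial.C c * Polynomial.X).coeff 0 = (p i).coeff 0 := by
      rw [Polynomial.coeff_sub, Polynomial.coeff_C_mul, Polynomial.coeff_X_zero, mul_zero,
        sub_zero]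
    rw [h3] at h2
    rw [← h2]
    ring
  refine coord_of_linear' (i := i) (c := c) (g := C ((p i).coeff 0) +
    ∑ j ∈ Finset.univ.erase i, Polynomial.aeval (X j : MvPolynomial (Fin n) K) (p j)) hc0 ?_ ?_
  · intro w
    rw [map_add, map_sum, aeval_C]
    congr 1
    refine Finset.sum_congr rfl fun j hj => ?_
    have h1 : aeval (Function.update X i w) (Polynomial.aeval (X j : MvPolynomial (Fin n) K) (p j))
        = Polynomial.aeval (aeval (Function.update X i w) (X j : MvPolynomial (Fin n) K)) (p j) :=
      (Polynomial.aeval_algHom_apply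
        (aeval (Function.update X i w) : MvPolynomial (Fin n) K →ₐ[K] _) _ _).symm
    rw [h1, aeval_X, Function.update_of_ne (Finset.ne_of_mem_erase hj)]
  · rw [← Finset.add_sum_erase Finset.univ _ (Finset.mem_univ i)]
    have h1 : Polynomial.aeval (X i : MvPolynomial (Fin n) K) (p i) =
        C c * X i + C ((p i).coeff 0) := by
      conv_lhs => rw [hp]
      rw [map_add, map_mul, Polynomial.aeval_X, Polynomial.aeval_C, Polynomial.aeval_C]
      rfl
    rw [h1]
    ring

end Vale.Agent.P295H
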