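import Vale.Agent.P295H.Main

/-!
P295: translations, automorphisms, and polynomials with two nonconstant monomials.
-/

namespace Vale.Agent.P295H

open MvPolynomial

variable {K : Type*} [Field K]

/-- the translation `x_i ↦ x_i + c` -/
theorem exists_translation {σ : Type*} [DecidableEq σ] (i : σ) (c : K) :
    ∃ e : MvPolynomial σ K ≃ₐ[K] MvPolynomial σ K, e (X i) = X i + C c := by
  let u : K → σ → MvPolynomial σ K := fun c => Function.update X i (X i + C c)
  have hu : ∀ c d, aeval (u c) (aeval (u d) (X i : MvPolynomial σ K)) = X i + C c + C d := by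
    intro c d
    have h1 : ∀ d, aeval (u d) (X i : MvPolynomial σ K) = X i + C d := by
      intro d
      rw [aeval_X]; exact Function.update_self _ _ _
    rw [h1 d, map_add, h1 c, aeval_C]
    rfl
  have hv : ∀ c d j, j ≠ i → aeval (u c) (aeval (u d) (X j : MvPolynomial σ K)) = X j := by
    intro c d j hj
    have h1 : ∀ d, aeval (u d) (X j : MvPolynomial σ K) = X j := by
      intro d
      rw [aeval_X]; exact Function.update_of_ne hj _ _
    rw [h1, h1]
  refine ⟨AlgEquiv.ofAlgHom (aeval (u c)) (aeval (u (-c))) ?_ ?_, ?_⟩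
  · apply MvPolynomial.algHom_ext
    intro j
    show aeval (u c) (aeval (u (-c)) (X j)) = X j
    by_cases hj : j = i
    · subst hj
      rw [hu, C_neg, add_neg_cancel_right]
    · exact hv _ _ j hj
  · apply MvPolynomial.algHom_ext
    intro j
    show aeval (u (-c)) (aeval (u c) (X j)) = X j
    by_cases hj : j = i
    · subst hj
      rw [hu, C_neg, neg_add_cancel_right]
    · exact hv _ _ j hj
  · show aeval (u c) (X i) = X i + C c
    rw [aeval_X]; exact Function.update_self _ _ _

theorem stable_sub_C {n : ℕ} {f : MvPolynomial (Fin n) K} (hf : IsStableCoord f) (c : K) :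
    IsStableCoord (f - C c) := by
  classical
  obtain ⟨m, e, i, he⟩ := hf
  obtain ⟨τ, hτ⟩ := exists_translation i c
  refine ⟨m, e.trans τ, i, ?_⟩
  show τ (e (rename Sum.inl (f - C c))) = X i
  have h1 : ∀ (e' : MvPolynomial (Fin n ⊕ Fin m) K ≃ₐ[K] MvPolynomial (Fin n ⊕ Fin m) K),
      e' (C c) = C c := fun e' => e'.commutes c
  rw [map_sub, map_sub, he, rename_C, h1, map_sub, hτ, h1, add_sub_cancel_right]

theorem coord_of_sub_C {n : ℕ} {f : MvPolynomial (Fin n) K} {c : K} (hf : IsCoord (f - C c)) :
    IsCoord f := by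
  classical
  obtain ⟨e, i, he⟩ := hf
  obtain ⟨τ, hτ⟩ := exists_translation i (-c)
  refine ⟨e.trans τ, i, ?_⟩
  show τ (e f) = X i
  have h1 : ∀ (e' : MvPolynomial (Fin n) K ≃ₐ[K] MvPolynomial (Fin n) K),
      e' (C c) = C c := fun e' => e'.commutes c
  have h2 : e f = X i + C c := by
    have h3 : e (f - C c) = e f - C c := by rw [map_sub, h1]
    rw [← he, h3, sub_add_cancel]
  rw [h2, map_add, hτ, h1, C_neg, neg_add_cancel_right]

/-- stable coordinates are preserved by automorphisms -/
theorem stable_map {n : ℕ} {f : MvPolynomial (Fin n) K} (hf : IsStableCoord f)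
    (α : MvPolynomial (Fin n) K ≃ₐ[K] MvPolynomial (Fin n) K) : IsStableCoord (α f) := by
  classical
  obtain ⟨m, e, i, he⟩ := hf
  let ext : (MvPolynomial (Fin n) K ≃ₐ[K] MvPolynomial (Fin n) K) →
      (MvPolynomial (Fin n ⊕ Fin m) K →ₐ[K] MvPolynomial (Fin n ⊕ Fin m) K) := fun β =>
    aeval (Sum.elim (fun j => rename Sum.inl (β (X j))) (fun j => X (Sum.inr j)))
  have hext : ∀ β p, ext β (rename Sum.inl p) = rename Sum.inl (β p) := by
    intro β p
    have h1 : (ext β).comp (rename Sum.inl) =
        (rename Sum.inl : MvPolynomial (Fin n) K →ₐ[K] MvPolynomial (Fin n ⊕ Fin m) K).comp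
          β.toAlgHom := by
      apply MvPolynomial.algHom_ext
      intro j
      show ext β (rename Sum.inl (X j)) = rename Sum.inl (β (X j))
      rw [rename_X]
      exact aeval_X _ _
    exact AlgHom.congr_fun h1 p
  have hinr : ∀ β (j : Fin m), ext β (X (Sum.inr j)) = X (Sum.inr j) := fun β j => aeval_X _ _
  have hinl : ∀ β (j : Fin n), ext β (X (Sum.inl j)) = rename Sum.inl (β (X j)) :=
    fun β j => aeval_X _ _
  have hcomp : ∀ β γ : MvPolynomial (Fin n) K ≃ₐ[K] MvPolynomial (Fin n) K,
      (∀ p, β (γ p) = p) → (ext β).comp (ext γ) = AlgHom.id K _ := by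
    intro β γ h
    apply MvPolynomial.algHom_ext
    rintro (j | j)
    · show ext β (ext γ (X (Sum.inl j))) = X (Sum.inl j)
      rw [hinl, hext, h, rename_X]
    · show ext β (ext γ (X (Sum.inr j))) = X (Sum.inr j)
      rw [hinr, hinr]
  let ε : MvPolynomial (Fin n ⊕ Fin m) K ≃ₐ[K] MvPolynomial (Fin n ⊕ Fin m) K :=
    AlgEquiv.ofAlgHom (ext α.symm) (ext α) (hcomp _ _ fun p => α.symm_apply_apply p)
      (hcomp _ _ fun p => α.apply_symm_apply p)
  refine ⟨m, ε.trans e, i, ?_⟩
  show e (ext α.symm (rename Sum.inl (α f))) = X i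
  rw [hext, α.symm_apply_apply, he]

theorem coord_of_map {n : ℕ} {f : MvPolynomial (Fin n) K}
    (α : MvPolynomial (Fin n) K ≃ₐ[K] MvPolynomial (Fin n) K) (hf : IsCoord (α f)) :
    IsCoord f := by
  obtain ⟨e, i, he⟩ := hf
  exact ⟨α.trans e, i, he⟩

/-- at most two nonconstant monomials -/
theorem coord_of_two {n : ℕ} {s t : Fin n →₀ ℕ} {a b c : K}
    (hf : IsStableCoord (C c + monomial s a + monomial t b)) :
    IsCoord (C c + monomial s a + monomial t b) := by
  classical
  -- the main case: `s` is a variable
  have main : ∀ (i : Fin n) (t : Fin n →₀ ℕ) (a b : K), a ≠ 0 → t ≠ Finsupp.single i 1 →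
      IsStableCoord (C c + monomial (Finsupp.single i 1) a + monomial t b) →
      IsCoord (C c + monomial (Finsupp.single i 1) a + monomial t b) := by
    intro i t a b ha ht hst
    have hX : (monomial (Finsupp.single i 1) a : MvPolynomial (Fin n) K) = C a * X i := by
      rw [C_mul_X_eq_monomial]
    by_cases hb : b = 0
    · refine coord_of_linear (c := a) (i := i) (g := C c) ha (by simp) ?_
      rw [hb, monomial_zero, add_zero, hX, add_comm]
    by_cases hti : t i = 0
    · refine coord_of_linear (c := a) (i := i) (g := C c + monomial t b) ha ?_ ?_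
      · intro hv
        have h1 := vars_add_subset _ _ hv
        rw [vars_C, Finset.empty_union, vars_monomial hb] at h1
        exact (Finsupp.mem_support_iff.1 h1) hti
      · rw [hX]; ring
    · exfalso
      have h1 := irreducible_of_stable (stable_sub_C hst c)
      have hle : Finsupp.single i 1 ≤ t := by
        rw [Finsupp.single_le_iff]
        omega
      obtain ⟨t', rfl⟩ : ∃ t', t = Finsupp.single i 1 + t' := ⟨t - Finsupp.single i 1,
        (add_tsub_cancel_of_le hle).symm⟩
      have ht' : t' ≠ 0 := by
        rintro rfl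
        exact ht (add_zero _)
      have h2 : C c + monomial (Finsupp.single i 1) a + monomial (Finsupp.single i 1 + t') b - C c
          = X i * (C a + monomial t' b) := by
        have h3 : (monomial (Finsupp.single i 1 + t') b : MvPolynomial (Fin n) K) =
            X i * monomial t' b := by
          rw [X, monomial_mul, one_mul]
        rw [h3, hX]
        ring
      rw [h2] at h1
      rcases h1.isUnit_or_isUnit rfl with h | h
      · exact (X_prime (R := K) (i := i)).not_unit h
      · obtain ⟨r, _, hr⟩ := isUnit_iff_eq_C_of_isReduced.1 h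
        have h4 := congrArg (coeff t') hr
        rw [coeff_add, coeff_C, coeff_C, if_neg (Ne.symm ht'), if_neg (Ne.symm ht'),
          coeff_monomial, if_pos rfl, zero_add] at h4
        exact hb h4
  obtain ⟨i, hi⟩ := exists_pderiv_ne hf 0
  rw [eval_zero_pderiv, coeff_add, coeff_add, coeff_C, coeff_monomial, coeff_monomial] at hi
  have hne : (0 : Fin n →₀ ℕ) ≠ Finsupp.single i 1 := by
    intro h
    have := DFunLike.congr_fun h i
    simp at this
  rw [if_neg hne, zero_add] at hi
  by_cases hs : s = Finsupp.single i 1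
  · by_cases ht : t = Finsupp.single i 1
    · rw [if_pos hs, if_pos ht] at hi
      subst hs
      subst ht
      have e : (C c + monomial (Finsupp.single i 1) a + monomial (Finsupp.single i 1) b :
          MvPolynomial (Fin n) K) = C (a + b) * X i + C c := by
        rw [C_mul_X_eq_monomial, add_assoc, ← map_add, add_comm]
      rw [e]
      exact coord_of_linear (i := i) hi (by simp) rfl
    · rw [if_pos hs, if_neg ht, add_zero] at hi
      subst hs
      exact main i t a b hi ht hf
  · by_cases ht : t = Finsupp.single i 1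
    · rw [if_neg hs, if_pos ht, zero_add] at hi
      subst ht
      have e : (C c + monomial s a + monomial (Finsupp.single i 1) b : MvPolynomial (Fin n) K) =
          C c + monomial (Finsupp.single i 1) b + monomial s a := by ring
      rw [e] at hf ⊢
      exact main i s b a hi hs hf
    · rw [if_neg hs, if_neg ht, add_zero] at hi
      exact absurd rfl hi

end Vale.Agent.P295H
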